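import Vale.Agent.P097.H699.Normal
import Vale.Agent.P299.H720.Montel

/-!
# P097 / case [c], (A5): normality of `E_j` at mid-level windows, R2 points allowed

`e n` zero free, `(e n)^2 = 1` only where `h n = 0`, `h n → h` not identically zero. Then along an
ultrafilter `e n` converges locally uniformly to a zero free holomorphic function, or to `0`, or to
`∞`.
-/

set_option linter.all false

open Complex Metric Set Filter Topology

namespace Vale.Agent.P097.H192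

open Vale.Agent.P097.H699 Vale.Agent.P299.H720

variable {ι : Type*} {E : Type*} [NormedAddCommGroup E] [NormedSpace ℂ E]

theorem line_maps {c z : E} {R : ℝ} (t : ℝ) (ht : 0 < t) (hz : z ∈ ball c (R / t)) :
    MapsTo (fun ζ : ℂ => c + ζ • (z - c)) (ball 0 t) (ball c R) := by
  intro ζ hζ
  rw [mem_ball, dist_eq_norm] at *
  simp only [add_sub_cancel_left, norm_smul]
  rw [sub_zero] at hζ
  have h1 : ‖z - c‖ * t < R := by rwa [lt_div_iff₀ ht] at hz
  have h2 : ‖ζ‖ * ‖z - c‖ ≤ t * ‖z - c‖ := mul_le_mul_of_nonneg_right hζ.le (norm_nonneg _)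
  linarith

theorem line_diff (c z : E) : Differentiable ℂ (fun ζ : ℂ => c + ζ • (z - c)) := by fun_prop

/-- Schottky in several variables -/
theorem schE {f : E → ℂ} {c : E} {R a : ℝ} (hf : DifferentiableOn ℂ f (ball c R))
    (h0 : ∀ z ∈ ball c R, f z ≠ 0) (h1 : ∀ z ∈ ball c R, f z ≠ 1) (ha : ‖f c‖ ≤ a) {z : E}
    (hz : z ∈ ball c (R / 2)) : ‖f z‖ ≤ SB a (1 / 2) := by
  have hm := line_maps 2 two_pos hz
  have := schottky (f := fun ζ : ℂ => f (c + ζ • (z - c))) (c := 0) (R := 2) (ρ := 1) (a := a)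
    (hf.comp (line_diff c z).differentiableOn hm) (fun ζ hζ => h0 _ (hm hζ))
    (fun ζ hζ => h1 _ (hm hζ)) (by norm_num) (by simpa using ha) (z := 1) (by simp)
  simpa using this

theorem schE_small {f : E → ℂ} {c : E} {R : ℝ} (hf : DifferentiableOn ℂ f (ball c R))
    (h0 : ∀ z ∈ ball c R, f z ≠ 0) (h1 : ∀ z ∈ ball c R, f z ≠ 1) (hc : ‖f c‖ ≤ 1) {z : E}
    (hz : z ∈ ball c (R / 8)) : ‖f z‖ ^ 2 ≤ 2 * SB 1 (1 / 2) * ‖f c‖ := by
  have hm := line_maps 8 (by norm_num) hz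
  have := schottky_small (f := fun ζ : ℂ => f (c + ζ • (z - c))) (c := 0) (R := 8)
    (hf.comp (line_diff c z).differentiableOn hm) (fun ζ hζ => h0 _ (hm hζ))
    (fun ζ hζ => h1 _ (hm hζ)) (by norm_num) (by simpa using hc) (z := 1) (by simp)
  simpa using this

/-- local boundedness at `x` along `l` -/
def Up (l : Filter ι) (e : ι → E → ℂ) (x : E) : Prop :=
  ∃ r > 0, ∃ C : ℝ, ∀ᶠ n in l, ∀ y ∈ ball x r, ‖e n y‖ ≤ C

/-- local convergence to zero at `x` along `l` -/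
def Zr (l : Filter ι) (e : ι → E → ℂ) (x : E) : Prop :=
  ∃ r > 0, ∀ ε > 0, ∀ᶠ n in l, ∀ y ∈ ball x r, ‖e n y‖ ≤ ε

theorem Up.nhd {l : Filter ι} {e : ι → E → ℂ} {x : E} (h : Up l e x) :
    ∃ r > 0, ∀ y ∈ ball x r, Up l e y := by
  obtain ⟨r, hr, C, hC⟩ := h
  refine ⟨r / 2, by positivity, fun y hy => ⟨r / 2, by positivity, C, ?_⟩⟩
  filter_upwards [hC] with n hn z hz
  apply hn
  rw [mem_ball] at *
  have := dist_triangle z y x
  linarith

theorem Zr.nhd {l : Filter ι} {e : ι → E → ℂ} {x : E} (h : Zr l e x) :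
    ∃ r > 0, ∀ y ∈ ball x r, Zr l e y := by
  obtain ⟨r, hr, hC⟩ := h
  refine ⟨r / 2, by positivity, fun y hy => ⟨r / 2, by positivity, fun ε hε => ?_⟩⟩
  filter_upwards [hC ε hε] with n hn z hz
  apply hn
  rw [mem_ball] at *
  have := dist_triangle z y x
  linarith

/-- bounded above and below -/
def Bt (l : Filter ι) (e : ι → E → ℂ) (x : E) : Prop := Up l e x ∧ Up l (fun n z => (e n z)⁻¹) x

theorem Bt.nhd {l : Filter ι} {e : ι → E → ℂ} {x : E} (h : Bt l e x) :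
    ∃ r > 0, ∀ y ∈ ball x r, Bt l e y := by
  obtain ⟨r, hr, h1⟩ := h.1.nhd
  obtain ⟨s, hs, h2⟩ := h.2.nhd
  refine ⟨min r s, lt_min hr hs, fun y hy => ⟨h1 y ?_, h2 y ?_⟩⟩
  · exact ball_subset_ball (min_le_left _ _) hy
  · exact ball_subset_ball (min_le_right _ _) hy

theorem not_up_zr {l : Filter ι} [l.NeBot] {e f : ι → E → ℂ} {x : E}
    (h0 : ∀ᶠ n in l, e n x * f n x = 1) (h1 : Up l f x) (h2 : Zr l e x) : False := by
  obtain ⟨r, hr, C, hC⟩ := h1
  obtain ⟨s, hs, h2⟩ := h2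
  obtain ⟨n, h3, h4, h5⟩ := (h0.and (hC.and (h2 (1 / (2 * (|C| + 1))) (by positivity)))).exists
  have h6 := h4 x (mem_ball_self hr)
  have h7 := h5 x (mem_ball_self hs)
  have h8 : ‖e n x‖ * ‖f n x‖ = 1 := by rw [← norm_mul, h3, norm_one]
  have h9 : ‖e n x‖ * ‖f n x‖ ≤ 1 / (2 * (|C| + 1)) * (|C| + 1) :=
    mul_le_mul h7 (by linarith [le_abs_self C]) (norm_nonneg _) (by positivity)
  have h10 : 1 / (2 * (|C| + 1)) * (|C| + 1) = 1 / 2 := by
    have : |C| + 1 ≠ 0 := by positivity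
    field_simp
  rw [h8, h10] at h9
  norm_num at h9

theorem Zr.up {l : Filter ι} {e : ι → E → ℂ} {x : E} (h : Zr l e x) : Up l e x := by
  obtain ⟨r, hr, h⟩ := h
  exact ⟨r, hr, 1, h 1 one_pos⟩

/-- trichotomy at a point near which `e n ^ 2` omits `0, 1` -/
theorem tri_reg (𝒰 : Ultrafilter ι) {e : ι → E → ℂ} {x : E} {R : ℝ} (hR : 0 < R)
    (h : ∀ᶠ n in (𝒰 : Filter ι), DifferentiableOn ℂ (e n) (ball x R) ∧
      ∀ y ∈ ball x R, e n y ≠ 0 ∧ e n y ^ 2 ≠ 1) :
    Bt (𝒰 : Filter ι) e x ∨ Zr (𝒰 : Filter ι) e x ∨ Zr (𝒰 : Filter ι) (fun n z => (e n z)⁻¹) x := by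
  -- one sided statement
  have key : ∀ f : ι → E → ℂ, (∀ᶠ n in (𝒰 : Filter ι), DifferentiableOn ℂ (f n) (ball x R) ∧
      ∀ y ∈ ball x R, f n y ≠ 0 ∧ f n y ^ 2 ≠ 1) →
      Up (𝒰 : Filter ι) f x ∨ Zr (𝒰 : Filter ι) (fun n z => (f n z)⁻¹) x := by
    intro f hf
    by_cases hb : ∃ a : ℝ, ∀ᶠ n in (𝒰 : Filter ι), ‖f n x‖ ≤ a
    · left
      obtain ⟨a, ha⟩ := hb
      refine ⟨R / 2, by positivity, SB (a ^ 2) (1 / 2) + 1, ?_⟩
      filter_upwards [ha, hf] with n hn hfn y hy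
      have h1 := schE (f := fun z => f n z ^ 2) (a := a ^ 2) (hfn.1.pow 2)
        (fun z hz => pow_ne_zero 2 (hfn.2 z hz).1) (fun z hz => (hfn.2 z hz).2)
        (by rw [norm_pow]; exact pow_le_pow_left₀ (norm_nonneg _) hn 2) hy
      rw [norm_pow] at h1
      nlinarith [norm_nonneg (f n y), SB_pos (a ^ 2) (1 / 2)]
    · right
      push Not at hb
      refine ⟨R / 8, by positivity, fun ε hε => ?_⟩
      set K : ℝ := 2 * SB 1 (1 / 2) with hK
      have hK0 : 0 < K := by rw [hK]; have := SB_pos 1 (1 / 2); positivity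
      have h1 := hb (max 1 (Real.sqrt (K / ε ^ 4)))
      filter_upwards [h1, hf] with n hn hfn y hy
      have hn1 : 1 < ‖f n x‖ := (le_max_left _ _).trans_lt hn
      have hn2 : Real.sqrt (K / ε ^ 4) < ‖f n x‖ := (le_max_right _ _).trans_lt hn
      have hd : DifferentiableOn ℂ (fun z => (f n z ^ 2)⁻¹) (ball x R) :=
        (hfn.1.pow 2).inv (fun z hz => pow_ne_zero 2 (hfn.2 z hz).1)
      have hc : ‖(f n x ^ 2)⁻¹‖ ≤ 1 := by
        rw [norm_inv, norm_pow]
        exact inv_le_one_of_one_le₀ (one_le_pow₀ hn1.le)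
      have h2 := schE_small (f := fun z => (f n z ^ 2)⁻¹) hd
        (fun z hz => inv_ne_zero (pow_ne_zero 2 (hfn.2 z hz).1))
        (fun z hz h => (hfn.2 z hz).2 (by rwa [inv_eq_one] at h)) hc hy
      simp only [norm_inv, norm_pow] at h2 ⊢
      -- ‖f x‖² > K / ε⁴
      have h3 : K / ε ^ 4 < ‖f n x‖ ^ 2 := by
        have := Real.lt_sq_of_sqrt_lt hn2
        exact this
      have h4 : K * (‖f n x‖ ^ 2)⁻¹ ≤ ε ^ 4 := by
        have h5 : 0 < ‖f n x‖ ^ 2 := by positivity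
        rw [← div_eq_mul_inv, div_le_iff₀ h5]
        rw [div_lt_iff₀ (by positivity)] at h3
        linarith
      have h5 : ((‖f n y‖ ^ 2)⁻¹) ^ 2 ≤ ε ^ 4 := h2.trans h4
      have h6 : (‖f n y‖⁻¹) ^ 4 ≤ ε ^ 4 := by
        calc (‖f n y‖⁻¹) ^ 4 = ((‖f n y‖ ^ 2)⁻¹) ^ 2 := by rw [inv_pow, inv_pow, ← pow_mul]
          _ ≤ ε ^ 4 := h5
      exact le_of_pow_le_pow_left₀ (by norm_num) hε.le h6
  have hinv : ∀ᶠ n in (𝒰 : Filter ι), DifferentiableOn ℂ (fun z => (e n z)⁻¹) (ball x R) ∧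
      ∀ y ∈ ball x R, (e n y)⁻¹ ≠ 0 ∧ (e n y)⁻¹ ^ 2 ≠ 1 := by
    filter_upwards [h] with n hn
    refine ⟨hn.1.inv fun z hz => (hn.2 z hz).1, fun y hy => ⟨inv_ne_zero (hn.2 y hy).1, ?_⟩⟩
    rw [inv_pow]
    intro h'
    exact (hn.2 y hy).2 (by rwa [inv_eq_one] at h')
  rcases key e h with h1 | h1
  · rcases key _ hinv with h2 | h2
    · exact Or.inl ⟨h1, h2⟩
    · exact Or.inr (Or.inl (by simpa using h2))
  · exact Or.inr (Or.inr h1)

/-- uniform versions on compact sets -/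
theorem up_compact {l : Filter ι} {e : ι → E → ℂ} {K : Set E} (hK : IsCompact K)
    (h : ∀ x ∈ K, Up l e x) :
    ∃ δ > 0, ∃ C : ℝ, ∀ᶠ n in l, ∀ q ∈ thickening δ K, ‖e n q‖ ≤ C := by
  refine hK.induction_on (p := fun S => ∃ δ > 0, ∃ C : ℝ, ∀ᶠ n in l, ∀ q ∈ thickening δ S, ‖e n q‖ ≤ C)
    ⟨1, one_pos, 0, by simp⟩ ?_ ?_ ?_
  · rintro s t hst ⟨δ, hδ, C, hC⟩
    exact ⟨δ, hδ, C, hC.mono fun n hn q hq => hn q (thickening_subset_of_subset _ hst hq)⟩
  · rintro s t ⟨δ, hδ, C, hC⟩ ⟨δ', hδ', C', hC'⟩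
    refine ⟨min δ δ', lt_min hδ hδ', max C C', ?_⟩
    filter_upwards [hC, hC'] with n h1 h2 q hq
    rw [thickening_union] at hq
    rcases hq with hq | hq
    · exact (h1 q (thickening_mono (min_le_left _ _) _ hq)).trans (le_max_left _ _)
    · exact (h2 q (thickening_mono (min_le_right _ _) _ hq)).trans (le_max_right _ _)
  · intro x hx
    obtain ⟨r, hr, C, hC⟩ := h x hx
    refine ⟨ball x (r / 2), mem_nhdsWithin_of_mem_nhds (ball_mem_nhds _ (by positivity)), r / 2,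
      by positivity, C, ?_⟩
    filter_upwards [hC] with n hn q hq
    apply hn
    rw [mem_thickening_iff] at hq
    obtain ⟨z, hz, hq⟩ := hq
    rw [mem_ball] at *
    have := dist_triangle q z x
    linarith

theorem zr_compact {l : Filter ι} {e : ι → E → ℂ} {K : Set E} (hK : IsCompact K)
    (h : ∀ x ∈ K, Zr l e x) :
    ∃ δ > 0, ∀ ε > 0, ∀ᶠ n in l, ∀ q ∈ thickening δ K, ‖e n q‖ ≤ ε := by
  refine hK.induction_on (p := fun S => ∃ δ > 0, ∀ ε > 0, ∀ᶠ n in l, ∀ q ∈ thickening δ S, ‖e n q‖ ≤ ε)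
    ⟨1, one_pos, by simp⟩ ?_ ?_ ?_
  · rintro s t hst ⟨δ, hδ, hC⟩
    exact ⟨δ, hδ, fun ε hε => (hC ε hε).mono fun n hn q hq =>
      hn q (thickening_subset_of_subset _ hst hq)⟩
  · rintro s t ⟨δ, hδ, hC⟩ ⟨δ', hδ', hC'⟩
    refine ⟨min δ δ', lt_min hδ hδ', fun ε hε => ?_⟩
    filter_upwards [hC ε hε, hC' ε hε] with n h1 h2 q hq
    rw [thickening_union] at hq
    rcases hq with hq | hq
    · exact h1 q (thickening_mono (min_le_left _ _) _ hq)
    · exact h2 q (thickening_mono (min_le_right _ _) _ hq)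
  · intro x hx
    obtain ⟨r, hr, hC⟩ := h x hx
    refine ⟨ball x (r / 2), mem_nhdsWithin_of_mem_nhds (ball_mem_nhds _ (by positivity)), r / 2,
      by positivity, fun ε hε => ?_⟩
    filter_upwards [hC ε hε] with n hn q hq
    apply hn
    rw [mem_thickening_iff] at hq
    obtain ⟨z, hz, hq⟩ := hq
    rw [mem_ball] at *
    have := dist_triangle q z x
    linarith

theorem ev_compact {l : Filter ι} {P : ι → E → Prop} {K : Set E} (hK : IsCompact K)
    (h : ∀ x ∈ K, ∃ r > 0, ∀ᶠ n in l, ∀ y ∈ ball x r, P n y) :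
    ∃ δ > 0, ∀ᶠ n in l, ∀ q ∈ thickening δ K, P n q := by
  refine hK.induction_on (p := fun S => ∃ δ > 0, ∀ᶠ n in l, ∀ q ∈ thickening δ S, P n q)
    ⟨1, one_pos, by simp⟩ ?_ ?_ ?_
  · rintro s t hst ⟨δ, hδ, hC⟩
    exact ⟨δ, hδ, hC.mono fun n hn q hq => hn q (thickening_subset_of_subset _ hst hq)⟩
  · rintro s t ⟨δ, hδ, hC⟩ ⟨δ', hδ', hC'⟩
    refine ⟨min δ δ', lt_min hδ hδ', ?_⟩
    filter_upwards [hC, hC'] with n h1 h2 q hq
    rw [thickening_union] at hq
    rcases hq with hq | hq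
    · exact h1 q (thickening_mono (min_le_left _ _) _ hq)
    · exact h2 q (thickening_mono (min_le_right _ _) _ hq)
  · intro x hx
    obtain ⟨r, hr, hC⟩ := h x hx
    refine ⟨ball x (r / 2), mem_nhdsWithin_of_mem_nhds (ball_mem_nhds _ (by positivity)), r / 2,
      by positivity, ?_⟩
    filter_upwards [hC] with n hn q hq
    apply hn
    rw [mem_thickening_iff] at hq
    obtain ⟨z, hz, hq⟩ := hq
    rw [mem_ball] at *
    have := dist_triangle q z x
    linarith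

/-- maximum principle on parallel discs -/
theorem max_disc {f : E → ℂ} {x v : E} {ρ δ C : ℝ} (hρ : 0 < ρ)
    (hd : ∀ q ∈ thickening δ ((fun ζ : ℂ => x + ζ • v) '' closedBall 0 ρ), DifferentiableAt ℂ f q)
    (hC : ∀ q ∈ thickening δ ((fun ζ : ℂ => x + ζ • v) '' sphere 0 ρ), ‖f q‖ ≤ C) {y : E}
    (hy : dist y x < δ) : ‖f y‖ ≤ C := by
  have hin : ∀ ζ : ℂ, ∀ S : Set ℂ, ζ ∈ S → y + ζ • v ∈ thickening δ ((fun ζ : ℂ => x + ζ • v) '' S) := by
    intro ζ S hζ
    rw [mem_thickening_iff]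
    exact ⟨x + ζ • v, mem_image_of_mem _ hζ, by simpa using hy⟩
  have hdiff : DiffContOnCl ℂ (fun ζ : ℂ => f (y + ζ • v)) (ball 0 ρ) := by
    apply DifferentiableOn.diffContOnCl
    rw [closure_ball _ hρ.ne']
    intro ζ hζ
    have h1 : DifferentiableAt ℂ (fun ζ : ℂ => y + ζ • v) ζ := by fun_prop
    exact ((hd _ (hin ζ _ hζ)).comp ζ h1).differentiableWithinAt
  have h2 := Complex.norm_le_of_forall_mem_frontier_norm_le (f := fun ζ : ℂ => f (y + ζ • v))
    isBounded_ball hdiff (C := C) (fun ζ hζ => by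
      rw [frontier_ball _ hρ.ne'] at hζ
      exact hC _ (hin ζ _ hζ)) (z := 0) (subset_closure (mem_ball_self hρ))
  simpa using h2

/-- the data along the filter: holomorphic, zero free, `e ^ 2 = 1` only where `h = 0` -/
def Dat (l : Filter ι) (e h : ι → E → ℂ) (U : Set E) : Prop :=
  ∀ x ∈ U, ∃ r > 0, ∀ᶠ n in l, DifferentiableOn ℂ (e n) (ball x r) ∧
    ∀ y ∈ ball x r, e n y ≠ 0 ∧ (e n y ^ 2 = 1 → h n y = 0)

/-- an analytic function on an open preconnected set which is not identically zero has, at every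
point, a disc with boundary circle free of zeros -/
theorem good_disc {U : Set E} (hU : IsOpen U) (hUc : IsPreconnected U) {h : E → ℂ}
    (han : AnalyticOnNhd ℂ h U) {z₁ : E} (hz₁ : z₁ ∈ U) (h1 : h z₁ ≠ 0)
    {x : E} (hx : x ∈ U) :
    ∃ v : E, ∃ ρ > 0, (∀ ζ ∈ closedBall (0 : ℂ) ρ, x + ζ • v ∈ U) ∧
      ∀ ζ ∈ sphere (0 : ℂ) ρ, h (x + ζ • v) ≠ 0 := by
  have hh : DifferentiableOn ℂ h U := fun y hy => (han y hy).differentiableAt.differentiableWithinAt
  obtain ⟨R, hR, hRU⟩ := Metric.isOpen_iff.1 hU x hx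
  -- a point near x where h ≠ 0
  have hex : ∃ y ∈ ball x (R / 2), h y ≠ 0 := by
    by_contra hcon
    push Not at hcon
    have h2 : h =ᶠ[𝓝 x] 0 := by
      filter_upwards [ball_mem_nhds x (show 0 < R / 2 by positivity)] with y hy
      exact hcon y hy
    exact h1 (han.eqOn_zero_of_preconnected_of_eventuallyEq_zero hUc hx h2 hz₁)
  obtain ⟨y, hy, hy0⟩ := hex
  have hm := line_maps 2 two_pos hy
  have hd : DifferentiableOn ℂ (fun ζ : ℂ => h (x + ζ • (y - x))) (ball 0 2) :=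
    (hh.mono hRU).comp (line_diff x y).differentiableOn hm
  have hA : AnalyticOnNhd ℂ (fun ζ : ℂ => h (x + ζ • (y - x))) (ball 0 2) :=
    hd.analyticOnNhd isOpen_ball
  rcases (hA 0 (mem_ball_self two_pos)).eventually_eq_zero_or_eventually_ne_zero with h2 | h2
  · exfalso
    have h3 := hA.eqOn_zero_of_preconnected_of_eventuallyEq_zero
      (convex_ball _ _).isPreconnected (mem_ball_self two_pos) h2
      (show (1 : ℂ) ∈ ball (0 : ℂ) 2 by simp)
    simp at h3
    exact hy0 h3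
  · rw [eventually_nhdsWithin_iff, Metric.eventually_nhds_iff] at h2
    obtain ⟨ε, hε, h2⟩ := h2
    refine ⟨y - x, min (ε / 2) 1, by positivity, ?_, ?_⟩
    · intro ζ hζ
      apply hRU
      apply hm
      rw [mem_closedBall] at hζ
      rw [mem_ball]
      have := min_le_right (ε / 2) (1 : ℝ)
      linarith
    · intro ζ hζ
      rw [mem_sphere] at hζ
      apply h2
      · rw [hζ]
        have := min_le_left (ε / 2) (1 : ℝ)
        linarith
      · intro h0
        have h0' : ζ = 0 := h0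
        rw [h0', dist_self] at hζ
        have : (0 : ℝ) < min (ε / 2) 1 := by positivity
        linarith

/-- near a point where the limit `h` does not vanish, `h n` has no zero -/
theorem ne_near {l : Filter ι} {h : ι → E → ℂ} {h₀ : E → ℂ} {U : Set E} (hU : IsOpen U)
    (hc : ContinuousOn h₀ U) (ht : TendstoLocallyUniformlyOn h h₀ l U) {x : E} (hx : x ∈ U)
    (hx0 : h₀ x ≠ 0) : ∃ r > 0, ball x r ⊆ U ∧ ∀ᶠ n in l, ∀ y ∈ ball x r, h n y ≠ 0 := by
  obtain ⟨R, hR, hRU⟩ := Metric.isOpen_iff.1 hU x hx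
  have hpos : 0 < ‖h₀ x‖ / 4 := by have := norm_pos_iff.2 hx0; positivity
  have h1 := (hc.continuousAt (hU.mem_nhds hx)).eventually (ball_mem_nhds _ hpos)
  obtain ⟨s, hs, hs1⟩ := Metric.eventually_nhds_iff_ball.1 h1
  obtain ⟨t, ht1, ht2⟩ := Metric.tendstoLocallyUniformlyOn_iff.1 ht _ hpos x hx
  rw [hU.nhdsWithin_eq hx] at ht1
  obtain ⟨s', hs', ht1⟩ := Metric.mem_nhds_iff.1 ht1
  refine ⟨min R (min s s'), by positivity, (ball_subset_ball (min_le_left _ _)).trans hRU, ?_⟩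
  filter_upwards [ht2] with n hn y hy h0
  have h2 := hs1 y (ball_subset_ball ((min_le_right _ _).trans (min_le_left _ _)) hy)
  have h3 := hn y (ht1 (ball_subset_ball ((min_le_right _ _).trans (min_le_right _ _)) hy))
  rw [h0, dist_zero_right] at h3
  rw [dist_eq_norm] at h2
  have h4 : ‖h₀ x‖ ≤ ‖h₀ y - h₀ x‖ + ‖h₀ y‖ := by
    have := norm_sub_norm_le (h₀ x) (h₀ y)
    rw [norm_sub_rev] at this
    linarith
  linarith

/-- **the trichotomy holds near every point** -/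
theorem tri_pt (𝒰 : Ultrafilter ι) {e h : ι → E → ℂ} {h₀ : E → ℂ} {U : Set E} (hU : IsOpen U)
    (hUc : IsPreconnected U) (hD : Dat (𝒰 : Filter ι) e h U) (han : AnalyticOnNhd ℂ h₀ U)
    (ht : TendstoLocallyUniformlyOn h h₀ (𝒰 : Filter ι) U) {z₁ : E} (hz₁ : z₁ ∈ U) (h1 : h₀ z₁ ≠ 0)
    {x : E} (hx : x ∈ U) :
    Bt (𝒰 : Filter ι) e x ∨ Zr (𝒰 : Filter ι) e x ∨ Zr (𝒰 : Filter ι) (fun n z => (e n z)⁻¹) x := by
  have hcont : ContinuousOn h₀ U := han.continuousOn
  -- regular points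
  have hreg : ∀ y ∈ U, h₀ y ≠ 0 → Bt (𝒰 : Filter ι) e y ∨ Zr (𝒰 : Filter ι) e y ∨
      Zr (𝒰 : Filter ι) (fun n z => (e n z)⁻¹) y := by
    intro y hy hy0
    obtain ⟨r, hr, -, h2⟩ := ne_near hU hcont ht hy hy0
    obtain ⟨r', hr', h3⟩ := hD y hy
    refine tri_reg 𝒰 (R := min r r') (by positivity) ?_
    filter_upwards [h2, h3] with n hn hn'
    refine ⟨hn'.1.mono (ball_subset_ball (min_le_right _ _)), fun z hz => ?_⟩
    obtain ⟨h4, h5⟩ := hn'.2 z (ball_subset_ball (min_le_right _ _) hz)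
    exact ⟨h4, fun h6 => hn z (ball_subset_ball (min_le_left _ _) hz) (h5 h6)⟩
  obtain ⟨v, ρ, hρ, hvU, hv0⟩ := good_disc hU hUc han hz₁ h1 hx
  set K : Set E := (fun ζ : ℂ => x + ζ • v) '' closedBall 0 ρ with hK
  set S : Set E := (fun ζ : ℂ => x + ζ • v) '' sphere 0 ρ with hS
  have hcl : Continuous (fun ζ : ℂ => x + ζ • v) := by fun_prop
  have hKc : IsCompact K := (isCompact_closedBall _ _).image hcl
  have hSc : IsCompact S := (isCompact_sphere _ _).image hcl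
  have hSp : IsPreconnected S := by
    apply IsPreconnected.image _ _ hcl.continuousOn
    apply isPreconnected_sphere
    rw [Complex.rank_real_complex]
    norm_num
  have hKU : K ⊆ U := by
    rintro _ ⟨ζ, hζ, rfl⟩
    exact hvU ζ hζ
  have hSU : S ⊆ U := (image_mono sphere_subset_closedBall).trans hKU
  have hS0 : ∀ y ∈ S, h₀ y ≠ 0 := by
    rintro _ ⟨ζ, hζ, rfl⟩
    exact hv0 ζ hζ
  -- differentiability and zero freeness near K
  have hloc : ∀ y ∈ K, ∃ r > 0, ∀ᶠ n in (𝒰 : Filter ι), ∀ z ∈ ball y r,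
      DifferentiableAt ℂ (e n) z ∧ e n z ≠ 0 := by
    intro y hy
    obtain ⟨r, hr, h2⟩ := hD y (hKU hy)
    refine ⟨r, hr, h2.mono fun n hn z hz => ⟨?_, (hn.2 z hz).1⟩⟩
    exact hn.1.differentiableAt (isOpen_ball.mem_nhds hz)
  obtain ⟨δ₀, hδ₀, hd⟩ := ev_compact hKc hloc
  -- the type is constant on the circle
  have hdis1 : ∀ y ∈ U, Zr (𝒰 : Filter ι) e y → Up (𝒰 : Filter ι) (fun n z => (e n z)⁻¹) y → False := by
    intro y hy h2 h3
    obtain ⟨r, hr, h4⟩ := hD y hy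
    refine not_up_zr ?_ h3 h2
    filter_upwards [h4] with n hn
    exact mul_inv_cancel₀ (hn.2 y (mem_ball_self hr)).1
  have hdis2 : ∀ y ∈ U, Zr (𝒰 : Filter ι) (fun n z => (e n z)⁻¹) y → Up (𝒰 : Filter ι) e y → False := by
    intro y hy h2 h3
    obtain ⟨r, hr, h4⟩ := hD y hy
    refine not_up_zr ?_ h3 h2
    filter_upwards [h4] with n hn
    exact inv_mul_cancel₀ (hn.2 y (mem_ball_self hr)).1
  have hopenB : IsOpen {y | Bt (𝒰 : Filter ι) e y} := Metric.isOpen_iff.2 fun y hy => hy.nhd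
  have hopenZ : IsOpen {y | Zr (𝒰 : Filter ι) e y} := Metric.isOpen_iff.2 fun y hy => hy.nhd
  have hopenI : IsOpen {y | Zr (𝒰 : Filter ι) (fun n z => (e n z)⁻¹) y} :=
    Metric.isOpen_iff.2 fun y hy => hy.nhd
  have hSne : S.Nonempty := by
    refine ⟨x + (ρ : ℂ) • v, mem_image_of_mem _ ?_⟩
    simp [abs_of_pos hρ]
  have htype : (∀ y ∈ S, Bt (𝒰 : Filter ι) e y) ∨ (∀ y ∈ S, Zr (𝒰 : Filter ι) e y) ∨
      ∀ y ∈ S, Zr (𝒰 : Filter ι) (fun n z => (e n z)⁻¹) y := by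
    by_cases hB : ∃ y ∈ S, Bt (𝒰 : Filter ι) e y
    · left
      obtain ⟨y, hy, hyB⟩ := hB
      intro z hz
      by_contra hzB
      obtain ⟨w, hw, hw1, hw2⟩ := hSp {y | Bt (𝒰 : Filter ι) e y} ({y | Zr (𝒰 : Filter ι) e y} ∪
        {y | Zr (𝒰 : Filter ι) (fun n z => (e n z)⁻¹) y}) hopenB (hopenZ.union hopenI)
        (fun y hy => by
          rcases hreg y (hSU hy) (hS0 y hy) with h | h | h
          · exact Or.inl h
          · exact Or.inr (Or.inl h)
          · exact Or.inr (Or.inr h)) ⟨y, hy, hyB⟩ ⟨z, hz, by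
            rcases hreg z (hSU hz) (hS0 z hz) with h | h | h
            · exact absurd h hzB
            · exact Or.inl h
            · exact Or.inr h⟩
      rcases hw2 with h | h
      · exact hdis1 w (hSU hw) h hw1.2
      · exact hdis2 w (hSU hw) h hw1.1
    · push Not at hB
      right
      by_cases hZ : ∃ y ∈ S, Zr (𝒰 : Filter ι) e y
      · left
        obtain ⟨y, hy, hyZ⟩ := hZ
        intro z hz
        by_contra hzZ
        obtain ⟨w, hw, hw1, hw2⟩ := hSp {y | Zr (𝒰 : Filter ι) e y}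
          {y | Zr (𝒰 : Filter ι) (fun n z => (e n z)⁻¹) y} hopenZ hopenI
          (fun y hy => by
            rcases hreg y (hSU hy) (hS0 y hy) with h | h | h
            · exact absurd h (hB y hy)
            · exact Or.inl h
            · exact Or.inr h) ⟨y, hy, hyZ⟩ ⟨z, hz, by
              rcases hreg z (hSU hz) (hS0 z hz) with h | h | h
              · exact absurd h (hB z hz)
              · exact absurd h hzZ
              · exact h⟩
        exact hdis1 w (hSU hw) hw1 hw2.up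
      · push Not at hZ
        right
        intro z hz
        rcases hreg z (hSU hz) (hS0 z hz) with h | h | h
        · exact absurd h (hB z hz)
        · exact absurd h (hZ z hz)
        · exact h
  have hinv : ∀ n, (∀ z ∈ thickening δ₀ K, DifferentiableAt ℂ (e n) z ∧ e n z ≠ 0) →
      ∀ z ∈ thickening δ₀ K, DifferentiableAt ℂ (fun z => (e n z)⁻¹) z := by
    intro n hn z hz
    exact (hn z hz).1.inv (hn z hz).2
  -- bounded above
  have hUp : ∀ f : ι → E → ℂ, (∀ᶠ n in (𝒰 : Filter ι), ∀ z ∈ thickening δ₀ K,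
      DifferentiableAt ℂ (f n) z) → (∀ y ∈ S, Up (𝒰 : Filter ι) f y) → Up (𝒰 : Filter ι) f x := by
    intro f hf hS'
    obtain ⟨δ, hδ, C, hC⟩ := up_compact hSc hS'
    refine ⟨min δ δ₀, by positivity, C, ?_⟩
    filter_upwards [hC, hf] with n hn hn' y hy
    rw [mem_ball] at hy
    exact max_disc (δ := min δ δ₀) hρ (fun q hq => hn' q (thickening_mono (min_le_right _ _) _ hq))
      (fun q hq => hn q (thickening_mono (min_le_left _ _) _ hq)) hy
  have hZr : ∀ f : ι → E → ℂ, (∀ᶠ n in (𝒰 : Filter ι), ∀ z ∈ thickening δ₀ K,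
      DifferentiableAt ℂ (f n) z) → (∀ y ∈ S, Zr (𝒰 : Filter ι) f y) → Zr (𝒰 : Filter ι) f x := by
    intro f hf hS'
    obtain ⟨δ, hδ, hC⟩ := zr_compact hSc hS'
    refine ⟨min δ δ₀, by positivity, fun ε hε => ?_⟩
    filter_upwards [hC ε hε, hf] with n hn hn' y hy
    rw [mem_ball] at hy
    exact max_disc (δ := min δ δ₀) hρ (fun q hq => hn' q (thickening_mono (min_le_right _ _) _ hq))
      (fun q hq => hn q (thickening_mono (min_le_left _ _) _ hq)) hy
  have hde : ∀ᶠ n in (𝒰 : Filter ι), ∀ z ∈ thickening δ₀ K, DifferentiableAt ℂ (e n) z :=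
    hd.mono fun n hn z hz => (hn z hz).1
  have hdi : ∀ᶠ n in (𝒰 : Filter ι), ∀ z ∈ thickening δ₀ K,
      DifferentiableAt ℂ (fun z => (e n z)⁻¹) z := hd.mono fun n hn => hinv n hn
  rcases htype with h2 | h2 | h2
  · exact Or.inl ⟨hUp e hde fun y hy => (h2 y hy).1, hUp _ hdi fun y hy => (h2 y hy).2⟩
  · exact Or.inr (Or.inl (hZr e hde h2))
  · exact Or.inr (Or.inr (hZr _ hdi h2))

/-- **row A5.E-NORM** : `E_j` is normal at mid-level windows -/
theorem enorm [FiniteDimensional ℂ E] (𝒰 : Ultrafilter ι) {e h : ι → E → ℂ} {h₀ : E → ℂ}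
    {U : Set E} (hU : IsOpen U) (hUc : IsPreconnected U) (hD : Dat (𝒰 : Filter ι) e h U)
    (hh : DifferentiableOn ℂ h₀ U) (ht : TendstoLocallyUniformlyOn h h₀ (𝒰 : Filter ι) U) {z₁ : E}
    (hz₁ : z₁ ∈ U) (h1 : h₀ z₁ ≠ 0) :
    (∃ e₀ : E → ℂ, DifferentiableOn ℂ e₀ U ∧ (∀ z ∈ U, e₀ z ≠ 0) ∧
      TendstoLocallyUniformlyOn e e₀ (𝒰 : Filter ι) U) ∨
    TendstoLocallyUniformlyOn e 0 (𝒰 : Filter ι) U ∨
    TendstoLocallyUniformlyOn (fun n z => (e n z)⁻¹) 0 (𝒰 : Filter ι) U := by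
  haveI : ProperSpace E := FiniteDimensional.proper ℂ E
  have han : AnalyticOnNhd ℂ h₀ U := Vale.Agent.P268.analyticOnNhd_of_differentiableOn hU hh
  have htri := fun x hx => tri_pt 𝒰 hU hUc hD han ht hz₁ h1 (x := x) hx
  have hdis1 : ∀ y ∈ U, Zr (𝒰 : Filter ι) e y → Up (𝒰 : Filter ι) (fun n z => (e n z)⁻¹) y → False := by
    intro y hy h2 h3
    obtain ⟨r, hr, h4⟩ := hD y hy
    refine not_up_zr ?_ h3 h2
    filter_upwards [h4] with n hn
    exact mul_inv_cancel₀ (hn.2 y (mem_ball_self hr)).1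
  have hdis2 : ∀ y ∈ U, Zr (𝒰 : Filter ι) (fun n z => (e n z)⁻¹) y → Up (𝒰 : Filter ι) e y → False := by
    intro y hy h2 h3
    obtain ⟨r, hr, h4⟩ := hD y hy
    refine not_up_zr ?_ h3 h2
    filter_upwards [h4] with n hn
    exact inv_mul_cancel₀ (hn.2 y (mem_ball_self hr)).1
  have hopenB : IsOpen {y | Bt (𝒰 : Filter ι) e y} := Metric.isOpen_iff.2 fun y hy => hy.nhd
  have hopenZ : IsOpen {y | Zr (𝒰 : Filter ι) e y} := Metric.isOpen_iff.2 fun y hy => hy.nhd
  have hopenI : IsOpen {y | Zr (𝒰 : Filter ι) (fun n z => (e n z)⁻¹) y} :=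
    Metric.isOpen_iff.2 fun y hy => hy.nhd
  have hzr : ∀ f : ι → E → ℂ, (∀ y ∈ U, Zr (𝒰 : Filter ι) f y) →
      TendstoLocallyUniformlyOn f 0 (𝒰 : Filter ι) U := by
    intro f hf
    rw [Metric.tendstoLocallyUniformlyOn_iff]
    intro ε hε x hx
    obtain ⟨r, hr, h2⟩ := hf x hx
    refine ⟨ball x r, mem_nhdsWithin_of_mem_nhds (ball_mem_nhds _ hr), ?_⟩
    filter_upwards [h2 (ε / 2) (by positivity)] with n hn y hy
    simp only [Pi.zero_apply, dist_zero_left]
    linarith [hn y hy]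
  rcases htri z₁ hz₁ with hz | hz | hz
  · left
    have hall : ∀ y ∈ U, Bt (𝒰 : Filter ι) e y := by
      intro z hz'
      by_contra hzB
      obtain ⟨w, hw, hw1, hw2⟩ := hUc {y | Bt (𝒰 : Filter ι) e y} ({y | Zr (𝒰 : Filter ι) e y} ∪
        {y | Zr (𝒰 : Filter ι) (fun n z => (e n z)⁻¹) y}) hopenB (hopenZ.union hopenI)
        (fun y hy => by
          rcases htri y hy with h | h | h
          · exact Or.inl h
          · exact Or.inr (Or.inl h)
          · exact Or.inr (Or.inr h)) ⟨z₁, hz₁, hz⟩ ⟨z, hz', by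
            rcases htri z hz' with h | h | h
            · exact absurd h hzB
            · exact Or.inl h
            · exact Or.inr h⟩
      rcases hw2 with h | h
      · exact hdis1 w hw h hw1.2
      · exact hdis2 w hw h hw1.1
    have hLB : LocBdd (𝒰 : Filter ι) e U := by
      intro y hy
      obtain ⟨r, hr, C, hC⟩ := (hall y hy).1
      obtain ⟨r', hr', h2⟩ := hD y hy
      refine ⟨min r r', by positivity, C, ?_⟩
      filter_upwards [hC, h2] with n hn hn'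
      exact ⟨hn'.1.mono (ball_subset_ball (min_le_right _ _)),
        fun z hz => hn z (ball_subset_ball (min_le_left _ _) hz)⟩
    obtain ⟨e₀, he1, he2, he3⟩ := montel_full 𝒰 hU hLB
    refine ⟨e₀, he1, fun z hz' h0 => ?_, he2⟩
    obtain ⟨r, hr, C, hC⟩ := (hall z hz').2
    obtain ⟨r', hr', h2⟩ := hD z hz'
    have h3 := he3 z hz' (fun _ => z) tendsto_const_nhds
    rw [h0] at h3
    have h4 := (tendsto_zero_iff_norm_tendsto_zero.1 h3).eventually
      (gt_mem_nhds (show (0 : ℝ) < 1 / (|C| + 1) by positivity))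
    obtain ⟨n, h5, h6, h7⟩ := (h4.and (hC.and h2)).exists
    have h8 := h6 z (mem_ball_self hr)
    have h9 := (h7.2 z (mem_ball_self hr')).1
    simp only [norm_inv] at h8
    have h10 : 0 < ‖e n z‖ := norm_pos_iff.2 h9
    rw [lt_div_iff₀ (by positivity)] at h5
    have h11 : 1 ≤ C * ‖e n z‖ := by
      rw [inv_le_iff_one_le_mul₀ h10] at h8
      linarith
    nlinarith [le_abs_self C]
  · right; left
    apply hzr
    intro z hz'
    by_contra hzB
    obtain ⟨w, hw, hw1, hw2⟩ := hUc {y | Zr (𝒰 : Filter ι) e y} ({y | Bt (𝒰 : Filter ι) e y} ∪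
      {y | Zr (𝒰 : Filter ι) (fun n z => (e n z)⁻¹) y}) hopenZ (hopenB.union hopenI)
      (fun y hy => by
        rcases htri y hy with h | h | h
        · exact Or.inr (Or.inl h)
        · exact Or.inl h
        · exact Or.inr (Or.inr h)) ⟨z₁, hz₁, hz⟩ ⟨z, hz', by
          rcases htri z hz' with h | h | h
          · exact Or.inl h
          · exact absurd h hzB
          · exact Or.inr h⟩
    rcases hw2 with h | h
    · exact hdis1 w hw hw1 h.2
    · exact hdis1 w hw hw1 h.up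
  · right; right
    apply hzr
    intro z hz'
    by_contra hzB
    obtain ⟨w, hw, hw1, hw2⟩ := hUc {y | Zr (𝒰 : Filter ι) (fun n z => (e n z)⁻¹) y}
      ({y | Bt (𝒰 : Filter ι) e y} ∪ {y | Zr (𝒰 : Filter ι) e y}) hopenI (hopenB.union hopenZ)
      (fun y hy => by
        rcases htri y hy with h | h | h
        · exact Or.inr (Or.inl h)
        · exact Or.inr (Or.inr h)
        · exact Or.inl h) ⟨z₁, hz₁, hz⟩ ⟨z, hz', by
          rcases htri z hz' with h | h | h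
          · exact Or.inl h
          · exact Or.inr h
          · exact absurd h hzB⟩
    rcases hw2 with h | h
    · exact hdis2 w hw hw1 h.1
    · exact hdis2 w hw hw1 h.up

end Vale.Agent.P097.H192
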